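import Vale.Agent.P233.Gig.IfE
import Vale.Agent.P233.H131.HessOp
import Vale.Agent.P233.H561.E2

/-!
P233, static lemmas for C6 / C6b (helper671): `∇_{∇h} ∇b = Hess b (∇h)` a.e. (`V_eq`), membership of
`∇_{∇h} ∇b` in the closed span of the gradients of the dense family (`V_mem`), and the extension of
a pointwise bound from the dense family to all test functions (`V_bd`).
-/

set_option linter.all false

open MeasureTheory Filter Topology Set
open scoped ENNReal NNReal InnerProductSpace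

universe u v

namespace Vale.Agent.P233.H671

variable {M : Type u} [MetricSpace M] [MeasurableSpace M] {m : Measure M} {C : Calc m}
variable {E : Type v} [NormedAddCommGroup E] [InnerProductSpace ℝ E]
variable {Gr : (M →ₘ[m] ℝ) → M → E} {V : (M →ₘ[m] ℝ) → (M →ₘ[m] ℝ) → M → E}
variable {HO : (M →ₘ[m] ℝ) → M → E →L[ℝ] E} {e : ℕ → M →ₘ[m] ℝ}

theorem denseT_of_stat (hS : Stat C Gr HO e) : H131.DenseT C e :=
  ⟨fun i => (hS.testI i).1, hS.denseW⟩

/-- (A2) `V b h x` lies in the closed span of the gradients `∇eⱼ(x)` -/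
theorem V_mem (hC : IsGamma C) (hU : IsHU C Gr V) (hS : Stat C Gr HO e) {b h : M →ₘ[m] ℝ}
    (hb : b ∈ C.Test) (hh : h ∈ C.Test) :
    ∀ᵐ x ∂m, V b h x ∈ (Submodule.span ℝ (range fun j => Gr (e j) x)).topologicalClosure :=
  H131.inClo_mem hC hS.grad (denseT_of_stat hS) ⟨hU.mem b hb h hh, hU.dense b hb h hh⟩

theorem gr_mem (hC : IsGamma C) (hS : Stat C Gr HO e) {h : M →ₘ[m] ℝ} (hh : h ∈ C.W) :
    ∀ᵐ x ∂m, Gr h x ∈ (Submodule.span ℝ (range fun j => Gr (e j) x)).topologicalClosure :=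
  H131.grad_mem hC hS.grad (denseT_of_stat hS) hh

/-- (A1) `∇_{∇h} ∇b = Hess b (∇h)` almost everywhere -/
theorem V_eq (hC : IsGamma C) (hU : IsHU C Gr V) (hS : Stat C Gr HO e) {b h : M →ₘ[m] ℝ}
    (hb : b ∈ C.Test) (hh : h ∈ C.Test) : ∀ᵐ x ∂m, V b h x = HO b x (Gr h x) := by
  have h1 : ∀ᵐ x ∂m, ∀ i, ⟪V b h x, Gr (e i) x⟫_ℝ = ⟪HO b x (Gr h x), Gr (e i) x⟫_ℝ := by
    refine ae_all_iff.2 fun i => ?_
    filter_upwards [hU.inner b hb h hh _ (hS.testI i).1, hS.hess.grad b hb h hh _ (hS.testI i).1]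
      with x a1 a2
    rw [a1, a2]
  filter_upwards [h1, V_mem hC hU hS hb hh,
    hS.hess.range e (fun i => (hS.testI i).1) hS.denseW b hb] with x a1 a2 a3
  refine H131.eq_of_cspan (v := fun i => Gr (e i) x) a2 ?_ a1
  have := a3 (Gr h x)
  rw [← Submodule.topologicalClosure_coe] at this
  exact this

omit [MetricSpace M] in
theorem rc_eq_cmb {F : Type*} [NormedAddCommGroup F] [InnerProductSpace ℝ F] (k : H131.RI) :
    ∃ c : ℕ →₀ ℚ, ∀ w : ℕ → F, H131.rc w k = cmb w c := by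
  classical
  refine ⟨Finsupp.onFinset k.1 (fun i => if h : i ∈ k.1 then k.2 ⟨i, h⟩ else 0)
    (fun i hi => by by_contra h; simp [h] at hi), fun w => ?_⟩
  unfold cmb
  rw [Finsupp.onFinset_sum _ (fun a => by simp)]
  unfold H131.rc
  rw [← Finset.sum_coe_sort k.1]
  refine Finset.sum_congr rfl fun i _ => ?_
  simp

/-- The values `∇eⱼ(x)` are dense in their closed span, for almost every `x` (the family `e` is
closed under rational combinations). -/
theorem ae_dense (hC : IsGamma C) {κ : ℝ} (hB : C.BEi κ) (hS : Stat C Gr HO e) :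
    ∀ᵐ x ∂m, ∀ y ∈ (Submodule.span ℝ (range fun j => Gr (e j) x)).topologicalClosure,
      y ∈ closure (range fun j => Gr (e j) x) := by
  have h1 : ∀ᵐ x ∂m, ∀ k : H131.RI, ∃ j, Gr (e j) x = H131.rc (fun i => Gr (e i) x) k := by
    refine ae_all_iff.2 fun k => ?_
    obtain ⟨c, hc⟩ := rc_eq_cmb (F := E) k
    obtain ⟨j, hj⟩ := hS.closed c
    filter_upwards [H561.cmb_gr hC hB hS.grad hS.testI c] with x hx
    exact ⟨j, by rw [hj, hx, hc]⟩
  filter_upwards [h1] with x hx y hy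
  rw [Metric.mem_closure_iff]
  intro δ hδ
  obtain ⟨k, hk⟩ := H131.rc_dense (fun j => Gr (e j) x) hy hδ
  obtain ⟨j, hj⟩ := hx k
  refine ⟨_, ⟨j, rfl⟩, ?_⟩
  rw [dist_eq_norm]
  show ‖y - Gr (e j) x‖ < δ
  rw [hj]
  exact hk

/-- (A3) a pointwise bound of `V b ·` extends from the dense family to all test functions
(`L` is an arbitrary function) -/
theorem V_bd (hC : IsGamma C) {κ : ℝ} (hB : C.BEi κ) (hU : IsHU C Gr V) (hS : Stat C Gr HO e)
    {b h : M →ₘ[m] ℝ} (hb : b ∈ C.Test) (hh : h ∈ C.Test) {L : M → ℝ}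
    (hL : ∀ i, ∀ᵐ x ∂m, ‖V b (e i) x‖ ≤ L x * ‖Gr (e i) x‖) :
    ∀ᵐ x ∂m, ‖V b h x‖ ≤ L x * ‖Gr h x‖ := by
  have h1 : ∀ᵐ x ∂m, ∀ i, V b (e i) x = HO b x (Gr (e i) x) :=
    ae_all_iff.2 fun i => V_eq hC hU hS hb (hS.testI i).1
  filter_upwards [h1, ae_all_iff.2 hL, V_eq hC hU hS hb hh, gr_mem hC hS (hC.tW hh),
    ae_dense hC hB hS] with x a1 a2 a3 a4 a5
  rw [a3]
  have hcl : IsClosed {y : E | ‖HO b x y‖ ≤ L x * ‖y‖} :=
    isClosed_le (by fun_prop) (by fun_prop)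
  refine hcl.closure_subset_iff.2 ?_ (a5 _ a4)
  rintro _ ⟨i, rfl⟩
  show ‖HO b x (Gr (e i) x)‖ ≤ L x * ‖Gr (e i) x‖
  rw [← a1 i]
  exact a2 i

end Vale.Agent.P233.H671
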