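import Vale.Agent.P233.RA.IfG
import Vale.Agent.P233.H715.RG2
import Vale.Agent.P233.H933.Str6
import Vale.Agent.P233.H46.GPos

/-!
P233, RCDA, block G2 (helper671): `Rad` and `RadLip`, homogeneity of the dimension, for all `κ`
(for `κ > 0` modulo P3: `IsAlexandrov M κ`, `diam ≤ π/√κ` ⇒ `IsAlexandrov M 0`).
-/

set_option linter.all false

open MeasureTheory Filter Topology Set Metric
open scoped ENNReal NNReal MeasureTheory

universe u

namespace Vale.Agent.P233.RG.G2

open H715.RG (cR cR_ge contr_lip haus_le_image)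

variable {M : Type u} [MetricSpace M] {κ : ℝ}

theorem sqrt_np (hk : κ ≤ 0) : √κ = 0 := Real.sqrt_eq_zero_of_nonpos hk

theorem lip_np (hA : T.IsAlexandrov M κ) (hk : κ ≤ 0) {R t : ℝ} (ht : t ∈ Ioc (0 : ℝ) 1)
    {p x y z w : M} (hx : dist p x ≤ R) (hy : dist p y ≤ R)
    (z1 : dist p z = t * dist p x) (z2 : dist z x = (1 - t) * dist p x)
    (w1 : dist p w = t * dist p y) (w2 : dist w y = (1 - t) * dist p y) :
    dist x y ≤ cR κ R / t * dist z w := by
  have h := contr_lip hA (R := R) (l := t) (o := p) (x := x) (y := y) (z := z) (w := w)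
    (by rw [sqrt_np hk, zero_mul]; positivity) ht.1 ht.2 hx hy
    (by rw [z1, z2]; ring) z1 (by rw [w1, w2]; ring) w1
  rw [div_mul_eq_mul_div, le_div_iff₀ ht.1, mul_comm]
  exact h

theorem radLip_np (hA : T.IsAlexandrov M κ) (hk : κ ≤ 0) : RadLip M κ := by
  intro R hR _
  refine ⟨cR κ R, by linarith [cR_ge κ R], fun p t ht x hx y hy z w z1 z2 w1 w2 => ?_⟩
  rw [mem_ball'] at hx hy
  exact lip_np hA hk ht hx.le hy.le z1 z2 w1 w2

theorem rad_np [MeasurableSpace M] [BorelSpace M] (hA : T.IsAlexandrov M κ) (hk : κ ≤ 0) :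
    Rad M κ := by
  classical
  intro R hR
  refine ⟨cR κ R, by linarith [cR_ge κ R], fun p t ht a ha B G hB _ hG => ?_⟩
  choose! f hf1 hf2 hf3 using hG
  have hC : 0 ≤ cR κ R / t := div_nonneg (by linarith [cR_ge κ R]) ht.1.le
  have h := haus_le_image (A := B) (G := f) (K := (cR κ R / t).toNNReal) ha (fun x hx y hy => by
    rw [Real.coe_toNNReal _ hC]
    have hx' := hB hx
    have hy' := hB hy
    rw [mem_ball'] at hx' hy'
    exact lip_np hA hk ht hx'.le hy'.le (hf2 x hx) (hf3 x hx) (hf2 y hy) (hf3 y hy))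
  refine h.trans ?_
  have e : ((cR κ R / t).toNNReal : ℝ≥0∞) ^ a = ENNReal.ofReal ((cR κ R / t) ^ a) := by
    rw [← ENNReal.ofReal_rpow_of_nonneg hC ha]
    rfl
  rw [e]
  exact mul_le_mul_right (measure_mono (image_subset_iff.2 hf1)) _

/-- homogeneity of the dimension, all `κ` -/
theorem dim_ball [MeasurableSpace M] [BorelSpace M] [SecondCountableTopology M]
    (hA : T.IsAlexandrov M κ) (x : M) {s : ℝ} (hs : 0 < s) :
    dimH (ball x s) = dimH (univ : Set M) := by
  have h0 : 0 ≤ √κ := Real.sqrt_nonneg _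
  have hpi := Real.pi_pos
  set R : ℝ := Real.pi / 4 / (√κ + 1) with hRd
  have hR0 : 0 < R := by positivity
  have hκR : √κ * R ≤ Real.pi / 4 := by
    rw [hRd, mul_div_assoc', div_le_iff₀ (by positivity)]
    nlinarith
  have h1 : ∀ (p : M) (s : ℝ), 0 < s → s ≤ R → dimH (ball p R) ≤ dimH (ball p s) :=
    fun p s hs hsR => (H715.RG.dimH_ball hA hκR hs hsR p).le
  have h2 : ∀ p q : M, dist p q < R → dimH (ball p R) ≤ dimH (ball q R) := by
    intro p q hpq
    have h3 := h1 p (R - dist p q) (by linarith) (by linarith [dist_nonneg (x := p) (y := q)])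
    refine h3.trans (dimH_mono (ball_subset_ball' ?_))
    linarith
  have h3 : ∀ q : M, dimH (ball q R) ≤ dimH (ball x R) := by
    intro q
    refine Str.chain hA hR0 (P := fun q => dimH (ball q R) ≤ dimH (ball x R)) ?_ (x := x) le_rfl q
    intro p q hp hpq
    exact (h2 q p (by rwa [dist_comm])).trans hp
  have h4 : dimH (univ : Set M) ≤ dimH (ball x R) := by
    obtain ⟨S, hS, hcov⟩ := TopologicalSpace.countable_cover_nhds
      (fun y : M => ball_mem_nhds y hR0)
    rw [← hcov, dimH_bUnion hS]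
    exact iSup₂_le fun i _ => h3 i
  refine le_antisymm (dimH_mono (subset_univ _)) ?_
  rcases le_total s R with hsR | hsR
  · exact h4.trans (h1 x s hs hsR)
  · exact h4.trans (dimH_mono (ball_subset_ball hsR))

/-- P3 (helper416) -/
def P3 : Prop :=
  ∀ (M : Type u) [MetricSpace M] [CompleteSpace M] (κ : ℝ), 0 < κ → T.IsAlexandrov M κ →
    (∀ x y : M, √κ * dist x y ≤ Real.pi) → T.IsAlexandrov M 0

variable [CompleteSpace M] [SecondCountableTopology M] [MeasurableSpace M] [BorelSpace M] {n : ℕ}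

theorem diam_le (hA : Alex M n κ) (hk : 0 < κ) (x y : M) : √κ * dist x y ≤ Real.pi := by
  refine H46.diam_le hA.alex hk (fun p r hr => ?_) x y
  rw [dim_ball hA.alex p hr, hA.dim]
  have := hA.two_le
  exact_mod_cast (by omega : 1 < n)

theorem alex_zero (h3 : P3.{u}) (hA : Alex M n κ) (hk : 0 < κ) : T.IsAlexandrov M 0 :=
  h3 M κ hk hA.alex (diam_le hA hk)

theorem rad (h3 : P3.{u}) (hA : Alex M n κ) : Rad M κ := by
  rcases le_or_gt κ 0 with hk | hk
  · exact rad_np hA.alex hk
  · intro R hR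
    obtain ⟨C, hC, h⟩ := rad_np (alex_zero h3 hA hk) le_rfl R hR
    refine ⟨C, hC, fun p t ht a ha B G hB _ hG => h p t ht a ha B G hB (fun x _ => ?_) hG⟩
    rw [Real.sqrt_zero, zero_mul]
    exact Real.pi_pos

theorem radLip (h3 : P3.{u}) (hA : Alex M n κ) : RadLip M κ := by
  rcases le_or_gt κ 0 with hk | hk
  · exact radLip_np hA.alex hk
  · intro R hR _
    refine radLip_np (alex_zero h3 hA hk) le_rfl R hR ?_
    rw [Real.sqrt_zero, zero_mul]
    exact Real.pi_div_two_pos

end Vale.Agent.P233.RG.G2
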