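import Vale.Agent.P233.H671.Rad

/-! P233, RCDA: assembly of block G2 (helper671) from P3 (helper416). -/

open MeasureTheory Filter Topology Set Metric
open scoped ENNReal NNReal MeasureTheory

universe u

namespace Vale.Agent.P233.RG.G2

/-- G2 from P3 -/
theorem blk_G2_of (h3 : P3.{u}) : Blk_G2.{u} :=
  fun M _ _ _ _ _ n κ hA => ⟨rad h3 hA, radLip h3 hA, fun hk => alex_zero h3 hA hk⟩

end Vale.Agent.P233.RG.G2
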