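import Vale.Agent.P233.RA.IfG
import Mathlib.Topology.ExtendFrom

/-!
P233, RCDA, block G7 (helper671): an Alexandrov space with a bi-Lipschitz chart is a countable union
of Lipschitz images of closed subsets of `ℝⁿ`.
-/

set_option linter.all false

open MeasureTheory Filter Topology Set Metric
open scoped ENNReal NNReal MeasureTheory

universe u

namespace Vale.Agent.P233.RG.G7

variable {M : Type u} [MetricSpace M] {n : ℕ}

/-- `A` is contained in a Lipschitz image of a subset of `ℝⁿ` -/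
def LI (n : ℕ) (A : Set M) : Prop :=
  ∃ (S : Set (E n)) (h : E n → M) (L : ℝ≥0), LipschitzOnWith L h S ∧ A ⊆ h '' S

theorem LI.mono {A B : Set M} (h : LI n B) (hAB : A ⊆ B) : LI n A := by
  obtain ⟨S, h, L, h1, h2⟩ := h
  exact ⟨S, h, L, h1, hAB.trans h2⟩

/-- Lipschitz maps extend to the closure -/
theorem exists_closed [CompleteSpace M] [Nonempty M] {S : Set (E n)} {h : E n → M} {L : ℝ≥0}
    (hL : LipschitzOnWith L h S) :
    ∃ g : E n → M, LipschitzOnWith L g (closure S) ∧ ∀ x ∈ S, g x = h x := by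
  have hlim : ∀ x ∈ closure S, ∃ y, Tendsto h (𝓝[S] x) (𝓝 y) := by
    intro x hx
    have hne : (𝓝[S] x).NeBot := mem_closure_iff_nhdsWithin_neBot.1 hx
    have hc : Cauchy (map h (𝓝[S] x)) := by
      have h1 : Cauchy (𝓝[S] x) := (cauchy_nhds (a := x)).mono' hne nhdsWithin_le_nhds
      exact h1.map_of_le hL.uniformContinuousOn (le_principal_iff.2 self_mem_nhdsWithin)
    exact cauchy_map_iff_exists_tendsto.1 hc
  have hcont : ContinuousOn (extendFrom S h) (closure S) :=
    continuousOn_extendFrom Subset.rfl hlim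
  have heq : ∀ x ∈ S, extendFrom S h x = h x := fun x hx =>
    extendFrom_eq (subset_closure hx) (hL.continuousOn x hx)
  refine ⟨extendFrom S h, ?_, heq⟩
  rw [lipschitzOnWith_closure_iff hcont]
  intro x hx y hy
  rw [heq x hx, heq y hy]
  exact hL hx hy

theorem LI.ball_big {κ : ℝ} (hA : T.IsAlexandrov M κ) (hR : RadLip M κ) {q : M} {ε R : ℝ}
    (hε : 0 < ε) (hR0 : 0 < R) (hRκ : √κ * R < Real.pi / 2) (h : LI n (ball q ε)) :
    LI n (ball q R) := by
  classical
  obtain ⟨S, h, L, h1, h2⟩ := h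
  obtain ⟨C, hC1, hC⟩ := hR R hR0 hRκ
  set t : ℝ := min 1 (ε / R) with ht
  have ht0 : 0 < t := lt_min one_pos (by positivity)
  have ht1 : t ≤ 1 := min_le_left _ _
  have htR : t * R ≤ ε := by
    have : t ≤ ε / R := min_le_right _ _
    rwa [le_div_iff₀ hR0] at this
  have htI : t ∈ Ioc (0 : ℝ) 1 := ⟨ht0, ht1⟩
  let P : E n → M → Prop := fun v x => x ∈ ball q R ∧ dist q (h v) = t * dist q x ∧
    dist (h v) x = (1 - t) * dist q x
  let S' : Set (E n) := {v | v ∈ S ∧ ∃ x, P v x}
  let g : E n → M := fun v => if hv : ∃ x, P v x then hv.choose else q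
  have hg : ∀ v ∈ S', P v (g v) := by
    intro v hv
    have := hv.2
    simp only [g, dif_pos this]
    exact this.choose_spec
  refine ⟨S', g, Real.toNNReal (C / t) * L, ?_, ?_⟩
  · refine LipschitzOnWith.of_dist_le_mul fun v hv w hw => ?_
    obtain ⟨a1, a2, a3⟩ := hg v hv
    obtain ⟨b1, b2, b3⟩ := hg w hw
    have h3 := hC q t htI (g v) a1 (g w) b1 (h v) (h w) a2 a3 b2 b3
    have h4 := h1.dist_le_mul v hv.1 w hw.1
    have h5 : 0 ≤ C / t := by positivity
    calc dist (g v) (g w) ≤ C / t * dist (h v) (h w) := h3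
      _ ≤ C / t * (L * dist v w) := mul_le_mul_of_nonneg_left h4 h5
      _ = ↑(Real.toNNReal (C / t) * L) * dist v w := by
        rw [NNReal.coe_mul, Real.coe_toNNReal _ h5]; ring
  · intro x hx
    obtain ⟨z, z1, z2⟩ := hA.geodesic q x (t * dist q x) ((1 - t) * dist q x)
      (by positivity) (mul_nonneg (by linarith) dist_nonneg) (by ring)
    have hz : z ∈ ball q ε := by
      rw [mem_ball'] at hx ⊢
      rw [z1]
      calc t * dist q x < t * R := mul_lt_mul_of_pos_left hx ht0
        _ ≤ ε := htR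
    obtain ⟨v, hv, rfl⟩ := h2 hz
    have hPv : P v x := ⟨hx, z1, z2⟩
    have hv' : v ∈ S' := ⟨hv, x, hPv⟩
    refine ⟨v, hv', ?_⟩
    obtain ⟨a1, a2, a3⟩ := hg v hv'
    have h3 := hC q t htI (g v) a1 x hx (h v) (h v) a2 a3 z1 z2
    rw [dist_self, mul_zero] at h3
    exact dist_le_zero.1 h3

theorem LI.chart {r : ℝ} {p : M} {f : M → Fin n → ℝ} {L : ℝ} (hL0 : 0 < L)
    (hL : ∀ x ∈ ball p r, ∀ y ∈ ball p r, dist x y ≤ L * dist (f x) (f y)) :
    LI n (ball p r) := by
  classical
  let P : E n → M → Prop := fun v x => x ∈ ball p r ∧ f x = WithLp.ofLp v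
  let S : Set (E n) := {v | ∃ x, P v x}
  let g : E n → M := fun v => if hv : ∃ x, P v x then hv.choose else p
  have hg : ∀ v ∈ S, P v (g v) := by
    intro v hv
    have hv' : ∃ x, P v x := hv
    simp only [g]
    rw [dif_pos hv']
    exact hv'.choose_spec
  refine ⟨S, g, Real.toNNReal L, ?_, ?_⟩
  · refine LipschitzOnWith.of_dist_le_mul fun v hv w hw => ?_
    obtain ⟨a1, a2⟩ := hg v hv
    obtain ⟨b1, b2⟩ := hg w hw
    have h3 := hL _ a1 _ b1
    have h4 : dist (f (g v)) (f (g w)) ≤ dist v w := by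
      rw [a2, b2]
      have := (PiLp.lipschitzWith_ofLp (p := 2) (β := fun _ : Fin n => ℝ)).dist_le_mul v w
      simpa using this
    rw [Real.coe_toNNReal _ hL0.le]
    exact h3.trans (mul_le_mul_of_nonneg_left h4 hL0.le)
  · intro x hx
    have hPx : P (WithLp.toLp 2 (f x)) x := ⟨hx, rfl⟩
    have hv : WithLp.toLp 2 (f x) ∈ S := ⟨x, hPx⟩
    refine ⟨_, hv, ?_⟩
    obtain ⟨a1, a2⟩ := hg _ hv
    have h3 := hL _ a1 _ hx
    rw [a2] at h3
    simp only [dist_self, mul_zero] at h3
    exact dist_le_zero.1 h3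

theorem main [CompleteSpace M] [SecondCountableTopology M] {κ : ℝ} (hA : T.IsAlexandrov M κ)
    (hR : RadLip M κ) (hC : Chart M n) : LRect M n := by
  obtain ⟨p, r, f, hr, -, ⟨L, hL0, hL⟩, -⟩ := hC
  haveI : Nonempty M := ⟨p⟩
  have hk : 0 ≤ √κ := Real.sqrt_nonneg _
  set R₁ : ℝ := 1 / (√κ + 1) with hR1
  have hR1p : 0 < R₁ := by positivity
  have hRκ : √κ * R₁ < Real.pi / 2 := by
    have h1 : √κ * R₁ ≤ 1 := by
      rw [hR1, mul_one_div, div_le_one (by positivity)]
      linarith
    linarith [Real.pi_gt_three]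
  -- all balls of radius `R₁`
  have step : ∀ q : M, (∃ ε > 0, LI n (ball q ε)) → ∀ q' : M, dist q q' < R₁ →
      ∃ ε > 0, LI n (ball q' ε) := by
    rintro q ⟨ε, hε, h⟩ q' hq
    refine ⟨R₁ - dist q q', by linarith, (h.ball_big hA hR hε hR1p hRκ).mono ?_⟩
    refine ball_subset_ball' ?_
    rw [dist_comm q' q]
    linarith
  have hall : ∀ k : ℕ, ∀ q : M, dist p q < (k + 1) * R₁ → ∃ ε > 0, LI n (ball q ε) := by
    intro k
    induction k with
    | zero =>
      intro q hq
      refine step p ⟨r, hr, LI.chart hL0 hL⟩ q ?_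
      simpa using hq
    | succ k ih =>
      intro q hq
      push_cast at hq
      rcases lt_or_ge (dist p q) ((k + 1) * R₁) with h | h
      · exact ih q h
      · set d := dist p q with hd
        -- a point at distance slightly less than `R₁` from `q`
        set a : ℝ := (d - (k + 1) * R₁ + R₁) / 2 with ha
        have h0 : 0 ≤ d - (k + 1) * R₁ := by linarith
        have h1 : d - (k + 1) * R₁ < R₁ := by linarith
        have ha1 : a < R₁ := by rw [ha]; linarith
        have ha0 : 0 < a := by rw [ha]; linarith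
        have ha2 : d - a < (k + 1) * R₁ := by rw [ha]; linarith
        have hda : 0 ≤ d - a := by
          have : R₁ ≤ (k + 1) * R₁ := by
            have : (0 : ℝ) ≤ k := Nat.cast_nonneg k
            nlinarith
          linarith
        obtain ⟨w, w1, w2⟩ := hA.geodesic p q (d - a) a hda ha0.le (by rw [hd]; ring)
        exact step w (ih w (by rw [w1]; exact ha2)) q (by rw [w2]; exact ha1)
  have hball : ∀ q : M, LI n (ball q R₁) := by
    intro q
    obtain ⟨k, hk⟩ := exists_nat_gt (dist p q / R₁)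
    rw [div_lt_iff₀ hR1p] at hk
    obtain ⟨ε, hε, h⟩ := hall k q (hk.trans (by nlinarith))
    exact h.ball_big hA hR hε hR1p hRκ
  choose S h Lc hLc hS using fun j => hball (TopologicalSpace.denseSeq M j)
  choose g hg1 hg2 using fun j => exists_closed (hLc j)
  refine ⟨fun j => closure (S j), g, fun j => isClosed_closure, fun j => ⟨_, hg1 j⟩, ?_⟩
  rw [eq_univ_iff_forall]
  intro x
  obtain ⟨j, hj⟩ := (TopologicalSpace.denseRange_denseSeq M).exists_dist_lt x hR1p
  obtain ⟨v, hv, hvx⟩ := hS j (mem_ball.2 hj)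
  refine mem_iUnion.2 ⟨j, v, subset_closure hv, ?_⟩
  rw [hg2 j v hv, hvx]

end Vale.Agent.P233.RG.G7

namespace Vale.Agent.P233.RG

theorem blk_G7 : Blk_G7.{u} := fun M _ _ _ _ _ n κ hA hR hC => G7.main hA.alex hR hC

end Vale.Agent.P233.RG
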