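import Vale.Agent.P233.RA.IfL2
import Vale.Agent.P233.H671.G2
import Vale.Agent.P233.H671.G7
import Vale.Agent.P233.H675.G6
import Vale.Agent.P233.H825.RA5
import Vale.Agent.P233.H825.RB2
import Vale.Agent.P233.H933.Str6
import Vale.Agent.P233.H416.GPos4
import Vale.Agent.P233.H719.BlkContr
import Vale.Agent.P233.H719.RL5

/-! P233, RCDA: assembly of `PartGL` (helper671) from the blocks of parts G and L. -/

open MeasureTheory Filter Topology Set Metric
open scoped ENNReal NNReal MeasureTheory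

universe u

namespace Vale.Agent.P233.RG

/-- P3 (helper416) -/
theorem p3 : G2.P3.{u} := fun _ _ _ _ hk hA hd => H416.isAlexandrov_le hA hk hd hk.le

theorem blk_G2 : Blk_G2.{u} := G2.blk_G2_of p3

theorem blk_Contr : Blk_Contr.{u} := H719.blk_contr_of p3

theorem blk_Myers : Blk_Myers.{u} := by
  intro M _ _ _ _ _ n κ hA _ hk x y
  rw [le_div_iff₀ (Real.sqrt_pos.2 hk), mul_comm]
  exact G2.diam_le hA hk x y

/-- all blocks but the three pieces of L2 -/
theorem partGL_of3 (ha : Blk_StarE.{u}) (hb : Blk_EC.{u}) (hc : Blk_LCE.{u}) : RA.PartGL.{u} :=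
  partGL_of blk_G2 Str.blk_chart Str.blk_dim blk_Myers H675.G6.blk_G6 blk_G7 blk_G9
    blk_G10 blk_G11 blk_Contr H719.blk_L1 (blk_L2_of ha hb hc)

end Vale.Agent.P233.RG
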