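import Vale.Agent.P233.H866.CDVolB
import Vale.Agent.P233.H939.CD3b
import Vale.Agent.P233.H790.S2LD2
import Vale.Agent.P233.H227.Ch6
import Vale.Agent.P233.N2.H883.Bridge
import Vale.Agent.P233.N2.S4

/-!
P233, stage 3b (helper671): `Blk_3b` from the two open blocks `KA2`, `KA3` of Theorem N with a
density function (the volume block is `H866.CDVol.blk_Vol`, the one step block is `CD.os_of_hyp`,
the s2l block is `H790.SD.blk_S2l`, the Lc block is `H227.Ch.blk_Lc`, Theorem N with a density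
function is `N2.H883.partN2_of`).
-/

set_option linter.all false

universe u

namespace Vale.Agent.P233.H671

/-- `Blk_3b` from `Lc`, `S2l` and Theorem N -/
theorem blk_3b_of3 (hL : CD.Blk_Lc.{u}) (hS : CD.Blk_S2l.{u}) (hN : CD.Blk_N2.{u}) :
    CD.Blk_3b.{u} :=
  CD.blk_3b_of4 H866.CDVol.blk_Vol hL hS hN

/-- `Blk_3b` from Theorem N with a density function -/
theorem blk_3b_of1 (hN : CD.Blk_N2.{u}) : CD.Blk_3b.{u} :=
  blk_3b_of3 H227.Ch.blk_Lc H790.SD.blk_S2l hN

/-- `Blk_3b` from the two `K` blocks of Theorem N -/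
theorem blk_3b_of (h2 : N2.RA.Blk_KA2.{u}) (h3 : N2.RA.Blk_KA3.{u}) :
    CD.Blk_3b.{u} :=
  blk_3b_of1 (N2.H883.blk_N2_of N2.S4.blk_S4 h2 h3)

end Vale.Agent.P233.H671
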