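import Vale.Agent.P233.H671.Blk3b
import Vale.Agent.P233.N2.H994.RK9

/-!
P233, stage 3b (helper671): `Blk_3b` of `CD/Final.lean`.
-/

set_option linter.all false

universe u

namespace Vale.Agent.P233.H671

/-- (3b): on a space with the `n`-dimensional Hausdorff measure, `CD(K,n)` and a quadratic Cheeger
energy imply the Eulerian form of `RCD(K,n)`. -/
theorem blk_3b : CD.Blk_3b.{u} := blk_3b_of N2.RA.blk_KA2 N2.RA.blk_KA3

end Vale.Agent.P233.H671
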