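import Vale.Agent.P233.Gig.IfC
import Vale.Agent.P233.H748.Ex
import Vale.Agent.P233.H719.TU2

/-!
P233, block C6b (helper671 for helper994): the Hessians of `θ` for the final densities `exp l` and
`1` have the same weak limits (`hess_diff`, polarisation of B8b and `Strong.grad`), and the
convergence of `∫ E⁰ |w_t - 1|² dt` (`wn_sq_lim`, from B8a).
-/

set_option linter.all false

open MeasureTheory Filter Topology Set
open scoped ENNReal NNReal InnerProductSpace

universe u

namespace Vale.Agent.P233.H671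

open Vale.Agent.P233.PC
open Vale.Agent.P233.PA (en OutA PotLim)

section real

/-- `∫ √(a F) → 0` if `a ∫ F → 0` -/
theorem sqrt_int_le {F : ℝ → ℝ} {s a δ : ℝ} (hs : s ≤ 1) (ha : 0 ≤ a) (hδ : 0 < δ)
    (hF : ContinuousOn F (Icc s 1)) (hF0 : ∀ t ∈ Icc s 1, 0 ≤ F t) :
    ∫ t in s..1, √(a * F t) ≤ δ * (1 - s) + (4 * δ)⁻¹ * (a * ∫ t in s..1, F t) := by
  have hu : uIcc s 1 = Icc s 1 := uIcc_of_le hs
  have i1 : IntervalIntegrable (fun t => √(a * F t)) volume s 1 := by
    refine ContinuousOn.intervalIntegrable ?_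
    rw [hu]
    exact Real.continuous_sqrt.comp_continuousOn (continuousOn_const.mul hF)
  have i2 : IntervalIntegrable (fun t => δ + (4 * δ)⁻¹ * (a * F t)) volume s 1 := by
    refine ContinuousOn.intervalIntegrable ?_
    rw [hu]
    exact continuousOn_const.add (continuousOn_const.mul (continuousOn_const.mul hF))
  have i3 : IntervalIntegrable (fun t => (4 * δ)⁻¹ * (a * F t)) volume s 1 := by
    refine ContinuousOn.intervalIntegrable ?_
    rw [hu]
    exact continuousOn_const.mul (continuousOn_const.mul hF)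
  have h1 : ∫ t in s..1, √(a * F t) ≤ ∫ t in s..1, (δ + (4 * δ)⁻¹ * (a * F t)) := by
    refine intervalIntegral.integral_mono_on hs i1 i2 fun t ht => ?_
    have h2 : 0 ≤ a * F t := mul_nonneg ha (hF0 t ht)
    have h3 := Real.sq_sqrt h2
    have h4 : 0 ≤ √(a * F t) := Real.sqrt_nonneg _
    set y := √(a * F t) with hy
    rw [← h3]
    have h5 : 0 ≤ (4 * δ)⁻¹ * (y - 2 * δ) ^ 2 := by positivity
    have h6 : (4 * δ)⁻¹ * (y - 2 * δ) ^ 2 = (4 * δ)⁻¹ * y ^ 2 - y + δ := by
      field_simp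
      ring
    linarith
  rw [intervalIntegral.integral_add (intervalIntegrable_const) i3,
    intervalIntegral.integral_const, intervalIntegral.integral_const_mul,
    intervalIntegral.integral_const_mul] at h1
  simp only [smul_eq_mul] at h1
  linarith

end real

section abstract

variable {M : Type u} [MeasurableSpace M] {m : Measure M} {C : Calc m} {κ : ℝ}

/-- polarisation of the Hessian -/
theorem hess_polar (hC : IsGamma C) (hB : C.BEi κ) {b h f : M →ₘ[m] ℝ} (hb : b ∈ C.Test)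
    (hh : h ∈ C.Test) (hf : f ∈ C.Test) :
    C.hess b h f = (2 : ℝ)⁻¹ • (C.hess b (h + f) (h + f) - C.hess b h h - C.hess b f f) := by
  have hf1 : (1 : ℝ) • f = f := one_smul _ _
  have hs := hC.test_add hB hh hf
  have e1 : C.hess b (h + f) (h + f) = C.hess b h (h + f) + C.hess b f (h + f) := by
    have := hC.hess_lin2 hB 1 hh hf hb hs
    rwa [hf1, one_smul] at this
  have e2 : C.hess b h (h + f) = C.hess b h h + C.hess b h f := by
    have := hC.hess_lin3 (t := (1 : ℝ)) hB hh hf hb hh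
    rwa [hf1, one_smul] at this
  have e3 : C.hess b f (h + f) = C.hess b f h + C.hess b f f := by
    have := hC.hess_lin3 (t := (1 : ℝ)) hB hh hf hb hf
    rwa [hf1, one_smul] at this
  rw [e1, e2, e3, hC.hess_symm hB hb hf hh]
  have e4 : C.hess b h h + C.hess b h f + (C.hess b h f + C.hess b f f) - C.hess b h h
      - C.hess b f f = (2 : ℝ) • C.hess b h f := by
    rw [two_smul]; abel
  rw [e4, smul_smul]
  norm_num

/-- polarised difference, integrated against a weight in `L²` -/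
theorem hess_diff_polar (hC : IsGamma C) (hB : C.BEi κ) {b b' h f σ : M →ₘ[m] ℝ}
    (hb : b ∈ C.Test) (hb' : b' ∈ C.Test) (hh : h ∈ C.Test) (hf : f ∈ C.Test) (hσ : MemLp σ 2 m) :
    I (σ * (C.hess b h f - C.hess b' h f)) = 2⁻¹ * (I (σ * (C.hess b (h + f) (h + f)
      - C.hess b' (h + f) (h + f))) - I (σ * (C.hess b h h - C.hess b' h h))
      - I (σ * (C.hess b f f - C.hess b' f f))) := by
  have hs := hC.test_add hB hh hf
  have m1 : MemLp (σ * (C.hess b (h + f) (h + f) - C.hess b' (h + f) (h + f))) 1 m :=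
    mem_mul_22 hσ (mem_sub (hC.hess_mem2 hB hb hs hs) (hC.hess_mem2 hB hb' hs hs))
  have m2 : MemLp (σ * (C.hess b h h - C.hess b' h h)) 1 m :=
    mem_mul_22 hσ (mem_sub (hC.hess_mem2 hB hb hh hh) (hC.hess_mem2 hB hb' hh hh))
  have m3 : MemLp (σ * (C.hess b f f - C.hess b' f f)) 1 m :=
    mem_mul_22 hσ (mem_sub (hC.hess_mem2 hB hb hf hf) (hC.hess_mem2 hB hb' hf hf))
  rw [← I_sub m1 m2, ← I_sub (mem_sub m1 m2) m3, ← I_smul]
  congr 1
  rw [hess_polar hC hB hb hh hf, hess_polar hC hB hb' hh hf, ← smul_sub, mul_smul_comm]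
  congr 1
  ring

end abstract

section metric

variable {M : Type u} [MetricSpace M] [MeasurableSpace M] {m : Measure M} {K N κ : ℝ}
variable {E : Type} [NormedAddCommGroup E] [InnerProductSpace ℝ E]
variable {Gr : (M →ₘ[m] ℝ) → M → E} {V : (M →ₘ[m] ℝ) → (M →ₘ[m] ℝ) → M → E}
variable {D : (M →ₘ[m] ℝ) → (M →ₘ[m] ℝ)}
variable {u : ℕ → ℝ → M →ₘ[m] ℝ} {φ : (M →ₘ[m] ℝ) → ℕ → ℝ → M →ₘ[m] ℝ}
variable {p : M} {s₀ C₀ : ℝ} {U : Ultrafilter ℕ} {Y : ℝ → M → M}

/-- the energy density of the weight -/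
noncomputable def FW (u : ℕ → ℝ → M →ₘ[m] ℝ) (φ : (M →ₘ[m] ℝ) → ℕ → ℝ → M →ₘ[m] ℝ)
    (l : M →ₘ[m] ℝ) (n : ℕ) (t : ℝ) : ℝ :=
  I (rn u φ 0 n t * (sob m).Γ (wn φ l n t - 1) (wn φ l n t - 1))

theorem rn_nonneg {l : M →ₘ[m] ℝ} {n : ℕ} {t : ℝ} : 0 ≤ rn u φ l n t := ex_nonneg _

theorem mul_nonneg_ae {f g : M →ₘ[m] ℝ} (hf : 0 ≤ f) (hg : 0 ≤ g) : 0 ≤ f * g := by
  rw [nonneg_iff_ae] at hf hg ⊢
  filter_upwards [hf, hg, mul_ae f g] with x a1 a2 a3
  rw [a3]
  exact mul_nonneg a1 a2

theorem FW_nonneg (hC : IsGamma (sob m)) (hB : LevB m Gr V D κ u φ) {l : M →ₘ[m] ℝ}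
    (hl : l ∈ (sob m).TestI) : ∀ᶠ n in atTop, ∀ t ∈ Icc (0 : ℝ) 1, 0 ≤ FW u φ l n t := by
  filter_upwards [hB.mem l hl] with n hn t ht
  refine I_nonneg (mul_nonneg_ae rn_nonneg (hC.nonneg _ (hC.tW (hn t ht).2.2.2.1.1)))

/-- **(C)** -/
theorem hess_diff [BorelSpace M] [SecondCountableTopology M] (hstd : Std m K N)
    (hB : LevB m Gr V D κ u φ) (hU : (U : Filter ℕ) ≤ atTop) (hSt : Strong p s₀ C₀ U u φ Y)
    {l h f β : M →ₘ[m] ℝ} (hl : l ∈ (sob m).TestI)
    (hh : h ∈ (sob m).TestI) (hf : f ∈ (sob m).TestI) (hβ : β ∈ (sob m).TestI)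
    {s : ℝ} (hs : s ∈ Ioo (0 : ℝ) 1) :
    ∃ g : ℕ → ℝ → ℝ, (∀ᶠ n in (U : Filter ℕ), IntervalIntegrable (g n) volume s 1 ∧
      ∀ t ∈ Icc s 1, |I (β * rn u φ l n t * ((sob m).hess (tn u φ l n t) h f
        - (sob m).hess (tn u φ 0 n t) h f))| ≤ g n t) ∧
      Tendsto (fun n => ∫ t in s..1, g n t) U (𝓝 0) := by
  have hC := H719.std_gamma hstd
  have hBE := H719.std_bei hstd
  have h0 := H719.testI_zero hstd
  obtain ⟨c1, h1⟩ := hB.b8b l hl (h + f) (hC.testI_add hBE hh hf) β hβ s hs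
  obtain ⟨c2, h2⟩ := hB.b8b l hl h hh β hβ s hs
  obtain ⟨c3, h3⟩ := hB.b8b l hl f hf β hβ s hs
  set c : ℝ := |c1| + |c2| + |c3| with hc
  have hc0 : 0 ≤ c := by positivity
  refine ⟨fun n t => c * √(en n * FW u φ l n t), ?_, ?_⟩
  · refine hU ?_
    filter_upwards [h1, h2, h3, hB.b8 l hl, hB.mem l hl, hB.mem 0 h0] with n a1 a2 a3 a4 a5 a6
    have hcont : ContinuousOn (fun t => FW u φ l n t) (Icc s 1) :=
      a4.1.mono (Icc_subset_Icc_left hs.1.le)
    refine ⟨?_, fun t ht => ?_⟩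
    · refine ContinuousOn.intervalIntegrable ?_
      rw [uIcc_of_le hs.2.le]
      exact continuousOn_const.mul (Real.continuous_sqrt.comp_continuousOn
        (continuousOn_const.mul hcont))
    · have ht0 : t ∈ Icc (0 : ℝ) 1 := ⟨hs.1.le.trans ht.1, ht.2⟩
      have hr := (a5 t ht0).2.2.1
      have hrt : MemLp (rn u φ l n t) ∞ m := by
        have e : rn u φ l n t = (rn u φ l n t - 1) + 1 := by ring
        rw [e]
        refine mem_add (hC.test_A hr.1).2 ?_
        exact mem_top_iff.2 ⟨1, by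
          filter_upwards [one_ae (M := M) (m := m)] with x hx
          rw [hx, abs_one]⟩
      have hσ : MemLp (β * rn u φ l n t) 2 m := mem_top_mul (hC.memLp _ (hC.tW hβ.1)) hrt
      rw [hess_diff_polar hC hBE (a5 t ht0).2.1.1 (a6 t ht0).2.1.1 hh.1 hf.1 hσ]
      have b1 := a1 t ht
      have b2 := a2 t ht
      have b3 := a3 t ht
      show _ ≤ c * √(en n * I (rn u φ 0 n t * (sob m).Γ (wn φ l n t - 1) (wn φ l n t - 1)))
      set S := √(en n * I (rn u φ 0 n t * (sob m).Γ (wn φ l n t - 1) (wn φ l n t - 1))) with hS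
      have hS0 : 0 ≤ S := Real.sqrt_nonneg _
      have c1' : c1 * S ≤ |c1| * S := mul_le_mul_of_nonneg_right (le_abs_self _) hS0
      have c2' : c2 * S ≤ |c2| * S := mul_le_mul_of_nonneg_right (le_abs_self _) hS0
      have c3' : c3 * S ≤ |c3| * S := mul_le_mul_of_nonneg_right (le_abs_self _) hS0
      have d1 : 0 ≤ |c1| * S := by positivity
      have d2 : 0 ≤ |c2| * S := by positivity
      have d3 : 0 ≤ |c3| * S := by positivity
      have e : c * S = |c1| * S + |c2| * S + |c3| * S := by rw [hc]; ring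
      rw [e, abs_le]
      rw [abs_le] at b1 b2 b3
      constructor <;> linarith [b1.1, b1.2, b2.1, b2.2, b3.1, b3.2]
  · -- `∫ √ → 0`
    have hlim := hSt.grad l hl s hs
    have key : ∀ δ > 0, ∀ᶠ n in (U : Filter ℕ), |(∫ t in s..1, c * √(en n * FW u φ l n t)) - 0|
        ≤ c * (δ * (1 - s) + (4 * δ)⁻¹ * (en n * ∫ t in s..1, FW u φ l n t)) := by
      intro δ hδ
      refine hU ?_
      filter_upwards [hB.b8 l hl, FW_nonneg hC hB hl] with n a4 a5
      have hcont : ContinuousOn (fun t => FW u φ l n t) (Icc s 1) :=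
        a4.1.mono (Icc_subset_Icc_left hs.1.le)
      have hε : 0 < en n := H719.en_pos n
      have h6 := sqrt_int_le hs.2.le hε.le hδ hcont
        (fun t ht => a5 t ⟨hs.1.le.trans ht.1, ht.2⟩)
      have h7 : 0 ≤ ∫ t in s..1, √(en n * FW u φ l n t) :=
        intervalIntegral.integral_nonneg hs.2.le fun t _ => Real.sqrt_nonneg _
      rw [sub_zero, intervalIntegral.integral_const_mul, abs_of_nonneg (mul_nonneg hc0 h7)]
      exact mul_le_mul_of_nonneg_left h6 hc0
    rw [Metric.tendsto_nhds]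
    intro η hη
    have hδ : 0 < η / (4 * (c + 1)) := by positivity
    set δ := η / (4 * (c + 1)) with hδd
    have h8 : Tendsto (fun n => c * (δ * (1 - s) + (4 * δ)⁻¹ *
        (en n * ∫ t in s..1, FW u φ l n t))) U (𝓝 (c * (δ * (1 - s) + (4 * δ)⁻¹ * 0))) :=
      (((hlim.const_mul _).const_add _).const_mul _)
    have h9 : c * (δ * (1 - s) + (4 * δ)⁻¹ * 0) < η := by
      rw [mul_zero, add_zero]
      have e1 : c * δ ≤ η / 4 := by
        rw [hδd, mul_div_assoc', div_le_div_iff₀ (by positivity) (by norm_num)]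
        nlinarith
      have e2 : c * (δ * (1 - s)) ≤ c * δ := by
        have : δ * (1 - s) ≤ δ := by nlinarith [hs.1]
        exact mul_le_mul_of_nonneg_left this hc0
      linarith
    filter_upwards [key δ hδ, (tendsto_order.1 h8).2 _ h9] with n a1 a2
    rw [Real.dist_eq]
    exact a1.trans_lt a2

/-- **(D)** -/
theorem wn_sq_lim (hC : IsGamma (sob m))
    (hB : LevB m Gr V D κ u φ) (hU : (U : Filter ℕ) ≤ atTop) (hSt : Strong p s₀ C₀ U u φ Y)
    {l : M →ₘ[m] ℝ} (hl : l ∈ (sob m).TestI) {s : ℝ} (hs : s ∈ Ioo (0 : ℝ) 1) :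
    (∀ᶠ n in (U : Filter ℕ), IntervalIntegrable
      (fun t => I (rn u φ 0 n t * (wn φ l n t - 1) ^ 2)) volume s 1) ∧
    Tendsto (fun n => ∫ t in s..1, I (rn u φ 0 n t * (wn φ l n t - 1) ^ 2)) U
      (𝓝 ((1 - s) * I ((ex l - 1) ^ 2))) := by
  have hu : uIcc s 1 = Icc s 1 := uIcc_of_le hs.2.le
  have main : ∀ᶠ n in (U : Filter ℕ), IntervalIntegrable
      (fun t => I (rn u φ 0 n t * (wn φ l n t - 1) ^ 2)) volume s 1 ∧
      |(∫ t in s..1, I (rn u φ 0 n t * (wn φ l n t - 1) ^ 2)) - (1 - s) * I ((ex l - 1) ^ 2)|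
        ≤ en n * ∫ t in s..1, FW u φ l n t := by
    refine hU ?_
    filter_upwards [hB.b8 l hl, FW_nonneg hC hB hl] with n a4 a5
    have hε : 0 < en n := H719.en_pos n
    have hcont : ContinuousOn (fun t => FW u φ l n t) (Icc s 1) :=
      a4.1.mono (Icc_subset_Icc_left hs.1.le)
    have hint : IntervalIntegrable (fun t => FW u φ l n t) volume s 1 :=
      ContinuousOn.intervalIntegrable (by rw [hu]; exact hcont)
    set cc := I ((ex l - 1) ^ 2) with hcc
    have heq : ∀ t ∈ Icc s 1, I (rn u φ 0 n t * (wn φ l n t - 1) ^ 2)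
        = cc - en n * ∫ r in t..1, FW u φ l n r := by
      intro t ht
      have := a4.2 t ⟨hs.1.le.trans ht.1, ht.2⟩
      show _ = cc - en n * ∫ r in t..1,
        I (rn u φ 0 n r * (sob m).Γ (wn φ l n r - 1) (wn φ l n r - 1))
      linarith
    have hprim : ContinuousOn (fun t => ∫ r in t..1, FW u φ l n r) (Icc s 1) := by
      have h1 : ContinuousOn (fun t => ∫ r in s..t, FW u φ l n r) (uIcc s 1) :=
        intervalIntegral.continuousOn_primitive_interval
          (by
            rw [hu]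
            exact hcont.integrableOn_Icc)
      rw [hu] at h1
      have h2 : ContinuousOn (fun t => (∫ r in s..1, FW u φ l n r)
          - ∫ r in s..t, FW u φ l n r) (Icc s 1) := continuousOn_const.sub h1
      refine h2.congr fun t ht => ?_
      have i1 : IntervalIntegrable (fun t => FW u φ l n t) volume s t :=
        hint.mono_set (by rw [hu, uIcc_of_le ht.1]; exact Icc_subset_Icc_right ht.2)
      have i2 : IntervalIntegrable (fun t => FW u φ l n t) volume t 1 :=
        hint.mono_set (by rw [hu, uIcc_of_le ht.2]; exact Icc_subset_Icc_left ht.1)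
      have := intervalIntegral.integral_add_adjacent_intervals i1 i2
      simp only
      linarith
    have hX : ContinuousOn (fun t => I (rn u φ 0 n t * (wn φ l n t - 1) ^ 2)) (Icc s 1) :=
      ((continuousOn_const (c := cc)).sub ((continuousOn_const (c := en n)).mul hprim)).congr heq
    have hXi : IntervalIntegrable (fun t => I (rn u φ 0 n t * (wn φ l n t - 1) ^ 2)) volume s 1 :=
      ContinuousOn.intervalIntegrable (by rw [hu]; exact hX)
    refine ⟨hXi, ?_⟩
    have e1 : (1 - s) * cc = ∫ t in s..1, cc := by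
      rw [intervalIntegral.integral_const, smul_eq_mul]
    rw [e1, ← intervalIntegral.integral_sub hXi intervalIntegrable_const]
    have hbd : ∀ t ∈ Set.uIoc s 1, ‖I (rn u φ 0 n t * (wn φ l n t - 1) ^ 2) - cc‖
        ≤ en n * ∫ t in s..1, FW u φ l n t := by
      intro t ht
      rw [uIoc_of_le hs.2.le] at ht
      have ht' : t ∈ Icc s 1 := ⟨ht.1.le, ht.2⟩
      rw [heq t ht']
      have i1 : IntervalIntegrable (fun t => FW u φ l n t) volume s t :=
        hint.mono_set (by rw [hu, uIcc_of_le ht'.1]; exact Icc_subset_Icc_right ht'.2)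
      have i2 : IntervalIntegrable (fun t => FW u φ l n t) volume t 1 :=
        hint.mono_set (by rw [hu, uIcc_of_le ht'.2]; exact Icc_subset_Icc_left ht'.1)
      have e2 := intervalIntegral.integral_add_adjacent_intervals i1 i2
      have e3 : 0 ≤ ∫ r in s..t, FW u φ l n r :=
        intervalIntegral.integral_nonneg ht'.1 fun r hr =>
          a5 r ⟨hs.1.le.trans hr.1, hr.2.trans ht'.2⟩
      have e4 : 0 ≤ ∫ r in t..1, FW u φ l n r :=
        intervalIntegral.integral_nonneg ht'.2 fun r hr =>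
          a5 r ⟨hs.1.le.trans (ht'.1.trans hr.1), hr.2⟩
      have e5 : cc - en n * (∫ r in t..1, FW u φ l n r) - cc
          = -(en n * ∫ r in t..1, FW u φ l n r) := by ring
      rw [e5, norm_neg, Real.norm_eq_abs, abs_of_nonneg (mul_nonneg hε.le e4)]
      refine mul_le_mul_of_nonneg_left ?_ hε.le
      linarith
    have h9 := intervalIntegral.norm_integral_le_of_norm_le_const hbd
    rw [Real.norm_eq_abs] at h9
    refine h9.trans ?_
    have e6 : |1 - s| ≤ 1 := by rw [abs_of_nonneg (by linarith [hs.2])]; linarith [hs.1]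
    have e7 : 0 ≤ en n * ∫ t in s..1, FW u φ l n t :=
      mul_nonneg hε.le (intervalIntegral.integral_nonneg hs.2.le fun r hr =>
        a5 r ⟨hs.1.le.trans hr.1, hr.2⟩)
    calc en n * (∫ t in s..1, FW u φ l n t) * |1 - s|
        ≤ en n * (∫ t in s..1, FW u φ l n t) * 1 := mul_le_mul_of_nonneg_left e6 e7
      _ = _ := mul_one _
  refine ⟨main.mono fun n hn => hn.1, ?_⟩
  rw [tendsto_iff_norm_sub_tendsto_zero]
  refine squeeze_zero' (Eventually.of_forall fun n => norm_nonneg _)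
    (main.mono fun n hn => ?_) (hSt.grad l hl s hs)
  rw [Real.norm_eq_abs]
  exact hn.2

end metric

end Vale.Agent.P233.H671
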